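import Mathlib

namespace Vale.Agent.Lib.P043

open Finset

variable {G : Type*} [AddCommGroup G]

section core
variable (p : ℕ) [hp : Fact p.Prime]

/-- Frobenius in the group algebra over `ZMod p`: if translates of `φ` by the elements of a
set `F` of size `p` sum to `1` everywhere, then translates by `p • f` sum to `0`. -/
theorem sum_translate_zero (F : Finset G) (hF : F.card = p)
    (φ : G → ZMod p) (hφ : ∀ y, ∑ f ∈ F, φ (y - f) = 1) (x : G) :
    ∑ f ∈ F, φ (x - p • f) = 0 := by
  classical
  -- the functional `u ↦ ∑ g, u g * ψ (x - g)` on the group algebra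
  let L : (G → ZMod p) → (AddMonoidAlgebra (ZMod p) G →+ ZMod p) := fun ψ =>
    (Finsupp.liftAddHom (fun g : G => AddMonoidHom.mulRight (ψ (x - g)))).comp
      (AddMonoidAlgebra.coeffAddEquiv (R := ZMod p) (M := G)).toAddMonoidHom
  have hL : ∀ (ψ : G → ZMod p) (g : G) (c : ZMod p),
      L ψ (AddMonoidAlgebra.single g c) = c * ψ (x - g) := by
    intro ψ g c
    simp [L]
  set Fh : AddMonoidAlgebra (ZMod p) G := ∑ f ∈ F, AddMonoidAlgebra.single f 1 with hFh
  -- key identity: L φ (Fh * u) = L 1 u
  have key : ∀ u : AddMonoidAlgebra (ZMod p) G, L φ (Fh * u) = L (fun _ => 1) u := by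
    intro u
    have : (L φ).comp (AddMonoidHom.mulLeft Fh) = L (fun _ => 1) := by
      apply AddMonoidAlgebra.addMonoidHom_ext
      intro g c
      simp only [AddMonoidHom.comp_apply, AddMonoidHom.coe_mulLeft, hL]
      rw [hFh, Finset.sum_mul, map_sum]
      simp only [AddMonoidAlgebra.single_mul_single, hL, one_mul]
      rw [← Finset.mul_sum]
      have := hφ (x - g)
      have e : ∀ f ∈ F, φ (x - (f + g)) = φ (x - g - f) := by
        intro f _; congr 1; abel
      rw [Finset.sum_congr rfl e, this]
    exact DFunLike.congr_fun this u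
  have key1 : ∀ u : AddMonoidAlgebra (ZMod p) G, L (fun _ => 1) (Fh * u) = 0 := by
    intro u
    have : (L (fun _ => (1 : ZMod p))).comp (AddMonoidHom.mulLeft Fh) = 0 := by
      apply AddMonoidAlgebra.addMonoidHom_ext
      intro g c
      simp only [AddMonoidHom.comp_apply, AddMonoidHom.coe_mulLeft, AddMonoidHom.zero_apply]
      rw [hFh, Finset.sum_mul, map_sum]
      simp only [AddMonoidAlgebra.single_mul_single, hL, one_mul, mul_one]
      rw [Finset.sum_const, hF]
      simp
    exact DFunLike.congr_fun this u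
  have hp2 : 2 ≤ p := hp.out.two_le
  have hcharp : CharP (AddMonoidAlgebra (ZMod p) G) p := by
    apply charP_of_injective_algebraMap (R := ZMod p) _ p
    intro a b hab
    rw [AddMonoidAlgebra.coe_algebraMap] at hab
    simpa using AddMonoidAlgebra.single_right_injective hab
  have hfrob : Fh ^ p = ∑ f ∈ F, AddMonoidAlgebra.single (p • f) (1 : ZMod p) := by
    rw [hFh, sum_pow_char p]
    apply Finset.sum_congr rfl
    intro f _
    rw [AddMonoidAlgebra.single_pow, one_pow]
  have h1 : L φ (Fh ^ p) = ∑ f ∈ F, φ (x - p • f) := by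
    rw [hfrob, map_sum]
    simp only [hL, one_mul]
  have h2 : L φ (Fh ^ p) = 0 := by
    have e : Fh ^ p = Fh * (Fh * Fh ^ (p - 2)) := by
      rw [← mul_assoc, ← pow_two, ← pow_add]
      congr 1; omega
    rw [e, key, key1]
  rw [← h1, h2]

end core

end Vale.Agent.Lib.P043
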