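import Mathlib
import Vale.Agent.Lib.P043.Frobenius

namespace Vale.Agent.Lib.P043

open Finset

variable {G : Type*} [AddCommGroup G]

/-- `A ⊕ F = G`: every element of `G` is `a + f` for exactly one pair `(a, f) ∈ A × F`. -/
def IsTiling (A : Set G) (F : Finset G) : Prop :=
  ∀ g : G, ∃! q : G × G, q.1 ∈ A ∧ q.2 ∈ F ∧ q.1 + q.2 = g

theorem count_eq_one {A : Set G} {F : Finset G} (h : IsTiling A F) (y : G)
    [DecidablePred (· ∈ A)] : (F.filter (fun f => y - f ∈ A)).card = 1 := by
  obtain ⟨⟨a, f⟩, ⟨ha, hf, hsum⟩, huniq⟩ := h y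
  rw [Finset.card_eq_one]
  refine ⟨f, ?_⟩
  ext f'
  simp only [Finset.mem_filter, Finset.mem_singleton]
  constructor
  · rintro ⟨hf', hmem⟩
    have := huniq (y - f', f') ⟨hmem, hf', sub_add_cancel y f'⟩
    exact (Prod.mk.inj this).2
  · intro hff
    subst hff
    refine ⟨hf, ?_⟩
    have : y - f' = a := by
      have hs : a + f' = y := hsum
      rw [← hs]; abel
    rw [this]; exact ha

/-- Every tiling by a tile of prime size `p` is invariant under `p • (f - f')`. -/
theorem prime_tiling_shift (p : ℕ) [hp : Fact p.Prime] {A : Set G} {F : Finset G}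
    (hF : F.card = p) (h : IsTiling A F) :
    ∀ f ∈ F, ∀ f' ∈ F, ∀ a ∈ A, a + p • (f - f') ∈ A := by
  classical
  intro f hf f' hf' a ha
  let φ : G → ZMod p := fun y => if y ∈ A then 1 else 0
  have hφ : ∀ y, ∑ g ∈ F, φ (y - g) = 1 := by
    intro y
    simp only [φ]
    rw [Finset.sum_boole, count_eq_one h y]
    simp
  have h0 := sum_translate_zero p F hF φ hφ (a + p • f)
  simp only [φ] at h0
  rw [Finset.sum_boole] at h0
  have hdvd : p ∣ (F.filter (fun g => a + p • f - p • g ∈ A)).card :=
    (ZMod.natCast_eq_zero_iff _ _).mp h0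
  have hpos : 0 < (F.filter (fun g => a + p • f - p • g ∈ A)).card := by
    apply Finset.card_pos.mpr
    refine ⟨f, Finset.mem_filter.mpr ⟨hf, ?_⟩⟩
    have : a + p • f - p • f = a := by abel
    rw [this]; exact ha
  have hle : (F.filter (fun g => a + p • f - p • g ∈ A)).card ≤ p := by
    rw [← hF]; exact Finset.card_filter_le _ _
  have hcard : (F.filter (fun g => a + p • f - p • g ∈ A)).card = F.card := by
    rw [hF]
    exact le_antisymm hle (Nat.le_of_dvd hpos hdvd)
  have hall : F.filter (fun g => a + p • f - p • g ∈ A) = F :=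
    Finset.eq_of_subset_of_card_le (Finset.filter_subset _ _) (le_of_eq hcard.symm)
  have hf'mem : f' ∈ F.filter (fun g => a + p • f - p • g ∈ A) := by rw [hall]; exact hf'
  have := (Finset.mem_filter.mp hf'mem).2
  have e : a + p • (f - f') = a + p • f - p • f' := by rw [smul_sub]; abel
  rw [e]; exact this

theorem prime_tiling_shift_iff (p : ℕ) [hp : Fact p.Prime] {A : Set G} {F : Finset G}
    (hF : F.card = p) (h : IsTiling A F) :
    ∀ f ∈ F, ∀ f' ∈ F, ∀ a, a ∈ A ↔ a + p • (f - f') ∈ A := by
  intro f hf f' hf' a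
  constructor
  · exact prime_tiling_shift p hF h f hf f' hf' a
  · intro ha
    have := prime_tiling_shift p hF h f' hf' f hf _ ha
    have e : a + p • (f - f') + p • (f' - f) = a := by
      rw [smul_sub, smul_sub]; abel
    rw [e] at this; exact this

end Vale.Agent.Lib.P043
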