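import Mathlib
import Vale.Agent.Lib.P043.Prime

namespace Vale.Agent.Lib.P043

open Finset

variable {G : Type*} [AddCommGroup G]

/-- In a finitely generated abelian group, a subgroup `P'` that is maximal among the subgroups
meeting `Λ` trivially satisfies: every `x` has a positive multiple in `Λ ⊔ P'`. -/
theorem exists_multiple_mem (Λ P' : AddSubgroup G)
    (hmax : Maximal (fun H : AddSubgroup G => Disjoint H Λ) P') (x : G) :
    ∃ k : ℕ, 0 < k ∧ k • x ∈ Λ ⊔ P' := by
  by_cases hx : x ∈ P'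
  · exact ⟨1, Nat.one_pos, by rw [one_smul]; exact (le_sup_right : P' ≤ Λ ⊔ P') hx⟩
  · have hnot : ¬ Disjoint (P' ⊔ AddSubgroup.zmultiples x) Λ := by
      intro hd
      have hle : P' ⊔ AddSubgroup.zmultiples x ≤ P' := hmax.2 hd le_sup_left
      exact hx (hle ((le_sup_right : AddSubgroup.zmultiples x ≤ _)
        (AddSubgroup.mem_zmultiples x)))
    rw [AddSubgroup.disjoint_def] at hnot
    simp only [not_forall] at hnot
    obtain ⟨y, hyH, hyΛ, hy0⟩ := hnot
    rw [AddSubgroup.mem_sup] at hyH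
    obtain ⟨q, hq, z, hz, hqz⟩ := hyH
    rw [AddSubgroup.mem_zmultiples_iff] at hz
    obtain ⟨m, hm⟩ := hz
    have hm0 : m ≠ 0 := by
      intro h0
      rw [h0, zero_smul] at hm
      rw [← hm, add_zero] at hqz
      have hdis : Disjoint P' Λ := hmax.1
      rw [AddSubgroup.disjoint_def] at hdis
      exact hy0 (hdis (hqz ▸ hq) hyΛ)
    have hmx : m • x ∈ Λ ⊔ P' := by
      have : m • x = y + (-q) := by rw [← hqz, hm]; abel
      rw [this]
      exact add_mem ((le_sup_left : Λ ≤ Λ ⊔ P') hyΛ)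
        ((le_sup_right : P' ≤ Λ ⊔ P') (neg_mem hq))
    refine ⟨m.natAbs, Int.natAbs_pos.mpr hm0, ?_⟩
    rcases Int.natAbs_eq m with h | h
    · have : (m.natAbs : ℕ) • x = m • x := by
        conv_rhs => rw [h]
        rw [natCast_zsmul]
      rw [this]; exact hmx
    · have : (m.natAbs : ℕ) • x = -(m • x) := by
        conv_rhs => rw [h]
        rw [neg_smul, neg_neg, natCast_zsmul]
      rw [this]; exact neg_mem hmx

theorem exists_maximal_disjoint (Λ : AddSubgroup G) :
    ∃ P' : AddSubgroup G, Maximal (fun H : AddSubgroup G => Disjoint H Λ) P' := by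
  have := zorn_le_nonempty₀ {H : AddSubgroup G | Disjoint H Λ} ?_ ⊥ (by simp)
  · obtain ⟨m, _, hm⟩ := this
    exact ⟨m, hm⟩
  · intro c hc hchain y hy
    refine ⟨sSup c, ?_, fun z hz => le_sSup hz⟩
    show Disjoint (sSup c) Λ
    rw [AddSubgroup.disjoint_def]
    intro x hx hxΛ
    rw [AddSubgroup.mem_sSup_of_directedOn ⟨y, hy⟩ hchain.directedOn] at hx
    obtain ⟨H, hH, hxH⟩ := hx
    have := hc hH
    have hd : Disjoint H Λ := this
    rw [AddSubgroup.disjoint_def] at hd
    exact hd hxH hxΛ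

/-- A subgroup `Q` such that every element has a positive multiple in `Q` has finite index
in a finitely generated abelian group. -/
theorem finiteIndex_of_multiples [AddGroup.FG G] (Q : AddSubgroup G)
    (h : ∀ x : G, ∃ k : ℕ, 0 < k ∧ k • x ∈ Q) : Q.FiniteIndex := by
  have htors : IsAddTorsion (G ⧸ Q) := by
    intro y
    obtain ⟨x, rfl⟩ := QuotientAddGroup.mk_surjective y
    obtain ⟨k, hk, hkx⟩ := h x
    rw [isOfFinAddOrder_iff_nsmul_eq_zero]
    refine ⟨k, hk, ?_⟩
    have : k • (x : G ⧸ Q) = ((k • x : G) : G ⧸ Q) := rfl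
    rw [this, QuotientAddGroup.eq_zero_iff]
    exact hkx
  have : Finite (G ⧸ Q) := AddCommGroup.finite_of_fg_isAddTorsion (G ⧸ Q) htors
  exact AddSubgroup.finiteIndex_of_finite_quotient

/-- **Periodic tilings for tiles of prime size.** In a finitely generated abelian group, if a
finite set `F` of prime cardinality tiles the group by translations, then it admits a tiling
invariant under a subgroup of finite index. -/
theorem exists_periodic_tiling [AddGroup.FG G] (p : ℕ) [hp : Fact p.Prime] {A : Set G}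
    {F : Finset G} (hF : F.card = p) (h : IsTiling A F) :
    ∃ A' : Set G, IsTiling A' F ∧
      ∃ P : AddSubgroup G, P.FiniteIndex ∧ ∀ t ∈ P, ∀ a ∈ A', a + t ∈ A' := by
  classical
  have hFne : F.Nonempty := by
    rw [← Finset.card_pos, hF]; exact hp.out.pos
  obtain ⟨f0, hf0⟩ := hFne
  set D : Set G := {d | ∃ f ∈ F, ∃ f' ∈ F, d = f - f'} with hD
  set Λ : AddSubgroup G := AddSubgroup.closure D with hΛ
  set Λp : AddSubgroup G := AddSubgroup.closure ((fun d => p • d) '' D) with hΛp
  have fact1 : ∀ l ∈ Λ, p • l ∈ Λp := by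
    intro l hl
    induction hl using AddSubgroup.closure_induction with
    | mem x hx => exact AddSubgroup.subset_closure ⟨x, hx, rfl⟩
    | zero => rw [smul_zero]; exact zero_mem _
    | add x y _ _ ihx ihy => rw [smul_add]; exact add_mem ihx ihy
    | neg x _ ih => rw [smul_neg]; exact neg_mem ih
  have fact2 : Λp ≤ Λ := by
    rw [hΛp, AddSubgroup.closure_le]
    rintro _ ⟨d, hd, rfl⟩
    exact nsmul_mem (AddSubgroup.subset_closure hd) p
  have hdiff : ∀ f ∈ F, ∀ f' ∈ F, f - f' ∈ Λ := fun f hf f' hf' =>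
    AddSubgroup.subset_closure ⟨f, hf, f', hf', rfl⟩
  set C : Set G := {a | a ∈ A ∧ a + f0 ∈ Λ} with hC
  have fact3 : ∀ c ∈ C, ∀ f ∈ F, c + f ∈ Λ := by
    intro c hc f hf
    have : c + f = (c + f0) + (f - f0) := by abel
    rw [this]
    exact add_mem hc.2 (hdiff f hf f0 hf0)
  have fact4 : ∀ l ∈ Λ, ∃ c ∈ C, ∃ f ∈ F, c + f = l := by
    intro l hl
    obtain ⟨⟨a, f⟩, ⟨ha, hf, hsum⟩, _⟩ := h l
    refine ⟨a, ⟨ha, ?_⟩, f, hf, hsum⟩
    have hs : a + f = l := hsum
    have : a + f0 = l - (f - f0) := by rw [← hs]; abel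
    rw [this]
    exact sub_mem hl (hdiff f hf f0 hf0)
  have fact5 : ∀ t ∈ Λp, ∀ c, c ∈ C ↔ c + t ∈ C := by
    intro t ht
    induction ht using AddSubgroup.closure_induction with
    | mem x hx =>
      obtain ⟨d, ⟨f, hf, f', hf', rfl⟩, rfl⟩ := hx
      intro c
      have hpd : p • (f - f') ∈ Λ := nsmul_mem (hdiff f hf f' hf') p
      constructor
      · rintro ⟨hcA, hcΛ⟩
        refine ⟨prime_tiling_shift p hF h f hf f' hf' c hcA, ?_⟩
        have : c + p • (f - f') + f0 = (c + f0) + p • (f - f') := by abel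
        rw [this]
        exact add_mem hcΛ hpd
      · rintro ⟨hcA, hcΛ⟩
        refine ⟨(prime_tiling_shift_iff p hF h f hf f' hf' c).mpr hcA, ?_⟩
        have : c + f0 = (c + p • (f - f') + f0) - p • (f - f') := by abel
        rw [this]
        exact sub_mem hcΛ hpd
    | zero => intro c; rw [add_zero]
    | add x y _ _ ihx ihy =>
      intro c
      rw [ihx c, ihy (c + x), add_assoc]
    | neg x _ ih =>
      intro c
      rw [ih (c + -x)]
      have : c + -x + x = c := by abel
      rw [this]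
  obtain ⟨P', hP'⟩ := exists_maximal_disjoint Λ
  have hdisj : ∀ x, x ∈ P' → x ∈ Λ → x = 0 := by
    have hd : Disjoint P' Λ := hP'.1
    rw [AddSubgroup.disjoint_def] at hd
    exact fun x hx hx' => hd hx hx'
  -- coset representatives of `Λ ⊔ P'`
  let rep : G → G := fun x => (Quotient.out (x : G ⧸ (Λ ⊔ P')) : G)
  have hrep_mem : ∀ x, x - rep x ∈ Λ ⊔ P' := by
    intro x
    have h1 : ((rep x : G) : G ⧸ (Λ ⊔ P')) = (x : G ⧸ (Λ ⊔ P')) :=
      QuotientAddGroup.out_eq' _
    have h2 := QuotientAddGroup.eq.mp h1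
    have : x - rep x = -rep x + x := by abel
    rw [this]; exact h2
  have hrep_eq : ∀ x y, x - y ∈ Λ ⊔ P' → rep x = rep y := by
    intro x y hxy
    have : (x : G ⧸ (Λ ⊔ P')) = (y : G ⧸ (Λ ⊔ P')) := by
      rw [QuotientAddGroup.eq]
      have e : -x + y = -(x - y) := by abel
      rw [e]; exact neg_mem hxy
    simp only [rep, this]
  have hrep_idem : ∀ x, rep (rep x) = rep x := by
    intro x
    apply hrep_eq
    have : rep x - x = -(x - rep x) := by abel
    rw [this]; exact neg_mem (hrep_mem x)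
  set A' : Set G := {a | ∃ c ∈ C, ∃ x : G, ∃ q ∈ P', a = c + rep x + q} with hA'
  refine ⟨A', ?_, Λp ⊔ P', ?_, ?_⟩
  · -- tiling
    intro x
    obtain ⟨l, hl, q, hq, hlq⟩ := AddSubgroup.mem_sup.mp (hrep_mem x)
    obtain ⟨c, hc, f, hf, hcf⟩ := fact4 l hl
    refine ⟨(c + rep x + q, f), ⟨⟨c, hc, x, q, hq, rfl⟩, hf, ?_⟩, ?_⟩
    · show c + rep x + q + f = x
      have : c + rep x + q + f = (c + f) + q + rep x := by abel
      rw [this, hcf, hlq]; abel
    · rintro ⟨a', f'⟩ ⟨⟨c', hc', x', q', hq', rfl⟩, hf', hsum'⟩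
      have hs : c' + rep x' + q' + f' = x := hsum'
      have hl' : c' + f' ∈ Λ := fact3 c' hc' f' hf'
      -- same representative
      have hr : rep x = rep x' := by
        rw [← hrep_idem x']
        apply hrep_eq
        have : x - rep x' = (c' + f') + q' := by rw [← hs]; abel
        rw [this]
        exact add_mem ((le_sup_left : Λ ≤ Λ ⊔ P') hl') ((le_sup_right : P' ≤ Λ ⊔ P') hq')
      have hx1 : x - rep x = (c' + f') + q' := by rw [hr, ← hs]; abel
      have hx2 : x - rep x = l + q := hlq.symm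
      have hqq : q' - q ∈ Λ := by
        have : q' - q = l - (c' + f') := by
          have : (c' + f') + q' = l + q := by rw [← hx1, hx2]
          calc q' - q = ((c' + f') + q') - (c' + f') - q := by abel
            _ = (l + q) - (c' + f') - q := by rw [this]
            _ = l - (c' + f') := by abel
        rw [this]; exact sub_mem hl hl'
      have hq0 : q' - q = 0 := hdisj _ (sub_mem hq' hq) hqq
      have hqeq : q' = q := sub_eq_zero.mp hq0
      have hleq : c' + f' = l := by
        have : (c' + f') + q' = l + q := by rw [← hx1, hx2]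
        rw [hqeq] at this
        exact add_right_cancel this
      -- uniqueness in the original tiling
      obtain ⟨⟨a0, g0⟩, _, huniq⟩ := h l
      have e1 := huniq (c, f) ⟨hc.1, hf, hcf⟩
      have e2 := huniq (c', f') ⟨hc'.1, hf', hleq⟩
      have e3 : (c', f') = (c, f) := e2.trans e1.symm
      have hc_eq : c' = c := (Prod.mk.inj e3).1
      have hf_eq : f' = f := (Prod.mk.inj e3).2
      rw [hc_eq, hf_eq, hqeq, ← hr]
  · -- finite index
    apply finiteIndex_of_multiples
    intro x
    obtain ⟨k, hk, hkx⟩ := exists_multiple_mem Λ P' hP' x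
    obtain ⟨l, hl, q, hq, hlq⟩ := AddSubgroup.mem_sup.mp hkx
    refine ⟨p * k, Nat.mul_pos hp.out.pos hk, ?_⟩
    have : (p * k) • x = p • l + p • q := by
      rw [mul_smul, ← hlq, smul_add]
    rw [this]
    exact add_mem ((le_sup_left : Λp ≤ Λp ⊔ P') (fact1 l hl))
      ((le_sup_right : P' ≤ Λp ⊔ P') (nsmul_mem hq p))
  · -- invariance
    intro t ht a ha
    obtain ⟨t1, ht1, t2, ht2, rfl⟩ := AddSubgroup.mem_sup.mp ht
    obtain ⟨c, hc, x, q, hq, rfl⟩ := ha
    refine ⟨c + t1, (fact5 t1 ht1 c).mp hc, x, q + t2, add_mem hq ht2, ?_⟩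
    abel

end Vale.Agent.Lib.P043
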